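import Mathlib

/-!
# P088, Theorem C: linear algebra (row C_AL), abstract part
-/

noncomputable section

namespace Vale.Agent.P088.H75

open Finset

variable {n : ℕ}

/-- The bilinear form of `H` on real vectors. -/
def A (H : Fin n → Fin n → ℂ) (x y : Fin n → ℝ) : ℂ := ∑ j, ∑ l, (x j : ℂ) * (y l : ℂ) * H j l

/-- The scalar product. -/
def D (x y : Fin n → ℝ) : ℝ := ∑ j, x j * y j

variable {H : Fin n → Fin n → ℂ}

theorem A_comm (hH : ∀ i j, H i j = H j i) (x y : Fin n → ℝ) : A H x y = A H y x := by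
  unfold A
  rw [Finset.sum_comm]
  refine Finset.sum_congr rfl fun j _ => Finset.sum_congr rfl fun l _ => ?_
  rw [hH l j]; ring

theorem A_add (x y z : Fin n → ℝ) : A H (x + y) z = A H x z + A H y z := by
  unfold A
  simp only [Pi.add_apply, Complex.ofReal_add, add_mul, Finset.sum_add_distrib]

theorem A_smul (c : ℝ) (x z : Fin n → ℝ) : A H (c • x) z = c * A H x z := by
  unfold A
  simp only [Pi.smul_apply, smul_eq_mul, Complex.ofReal_mul, Finset.mul_sum]
  refine Finset.sum_congr rfl fun j _ => Finset.sum_congr rfl fun l _ => ?_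
  ring

theorem A_add' (hH : ∀ i j, H i j = H j i) (x y z : Fin n → ℝ) :
    A H z (x + y) = A H z x + A H z y := by
  rw [A_comm hH, A_add, A_comm hH x, A_comm hH y]

theorem A_smul' (hH : ∀ i j, H i j = H j i) (c : ℝ) (x z : Fin n → ℝ) :
    A H z (c • x) = c * A H z x := by
  rw [A_comm hH, A_smul, A_comm hH x]

theorem A_single (i j : Fin n) : A H (Pi.single i 1) (Pi.single j 1) = H i j := by
  unfold A
  rw [Finset.sum_eq_single i, Finset.sum_eq_single j]
  · simp
  · intro l _ hl; simp [Pi.single_apply, hl]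
  · simp
  · intro l _ hl; simp [Pi.single_apply, hl]
  · simp

theorem D_comm (x y : Fin n → ℝ) : D x y = D y x := by
  unfold D; exact Finset.sum_congr rfl fun j _ => mul_comm _ _

theorem D_add (x y z : Fin n → ℝ) : D (x + y) z = D x z + D y z := by
  unfold D; simp only [Pi.add_apply, add_mul, Finset.sum_add_distrib]

theorem D_smul (c : ℝ) (x z : Fin n → ℝ) : D (c • x) z = c * D x z := by
  unfold D; simp only [Pi.smul_apply, smul_eq_mul, Finset.mul_sum, mul_assoc]

theorem D_add' (x y z : Fin n → ℝ) : D z (x + y) = D z x + D z y := by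
  rw [D_comm, D_add, D_comm x, D_comm y]

theorem D_smul' (c : ℝ) (x z : Fin n → ℝ) : D z (c • x) = c * D z x := by
  rw [D_comm, D_smul, D_comm x]

theorem D_single (i : Fin n) (x : Fin n → ℝ) : D (Pi.single i 1) x = x i := by
  unfold D
  rw [Finset.sum_eq_single i]
  · simp
  · intro l _ hl; simp [Pi.single_apply, hl]
  · simp

theorem D_nonneg (x : Fin n → ℝ) : 0 ≤ D x x :=
  Finset.sum_nonneg fun j _ => mul_self_nonneg _

theorem D_zero {x : Fin n → ℝ} (h : D x x = 0) : x = 0 := by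
  funext j
  have h1 := (Finset.sum_eq_zero_iff_of_nonneg (fun j _ => mul_self_nonneg (x j))).1 h j
    (Finset.mem_univ j)
  exact mul_self_eq_zero.1 h1

theorem A_exp (hH : ∀ i j, H i j = H j i) (a b : ℝ) (e p : Fin n → ℝ) :
    A H (a • e + b • p) (a • e + b • p)
      = (a : ℂ) * a * A H e e + 2 * a * b * A H e p + (b : ℂ) * b * A H p p := by
  rw [A_add, A_add' hH, A_add' hH, A_smul, A_smul, A_smul, A_smul, A_smul' hH, A_smul' hH,
    A_smul' hH, A_smul' hH, A_comm hH p e]
  ring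

theorem A_exp2 (hH : ∀ i j, H i j = H j i) (a b : ℝ) (x y v : Fin n → ℝ) :
    A H (x + a • v) (y + b • v)
      = A H x y + (b : ℂ) * A H x v + (a : ℂ) * A H y v + (a : ℂ) * (b : ℂ) * A H v v := by
  rw [A_add, A_add' hH, A_add' hH, A_smul, A_smul, A_smul' hH, A_smul' hH, A_comm hH v y]
  ring

theorem D_exp (a b : ℝ) (e p : Fin n → ℝ) :
    D (a • e + b • p) (a • e + b • p) = a * a * D e e + 2 * a * b * D e p + b * b * D p p := by
  rw [D_add, D_add', D_add', D_smul, D_smul, D_smul, D_smul, D_smul', D_smul',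
    D_smul', D_smul', D_comm p e]
  ring

/-- The quadratic form at `e + i p`. -/
theorem q_eq (hH : ∀ i j, H i j = H j i) (e p : Fin n → ℝ) :
    (∑ j, ∑ l, (⟨e j, p j⟩ : ℂ) * (⟨e l, p l⟩ : ℂ) * H j l)
      = A H e e - A H p p + 2 * Complex.I * A H e p := by
  have h1 : ∀ j : Fin n, (⟨e j, p j⟩ : ℂ) = (e j : ℂ) + (p j : ℂ) * Complex.I := by
    intro j
    apply Complex.ext <;> simp
  have h2 : A H e p = ∑ j, ∑ l, (p j : ℂ) * (e l : ℂ) * H j l := by
    rw [A_comm hH]; rfl
  have h3 : 2 * Complex.I * A H e p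
      = Complex.I * A H e p + Complex.I * (∑ j, ∑ l, (p j : ℂ) * (e l : ℂ) * H j l) := by
    rw [← h2]; ring
  rw [h3]
  unfold A
  simp only [h1, Finset.mul_sum, ← Finset.sum_add_distrib, ← Finset.sum_sub_distrib]
  refine Finset.sum_congr rfl fun j _ => Finset.sum_congr rfl fun l _ => ?_
  have hI : Complex.I * Complex.I = -1 := Complex.I_mul_I
  linear_combination (p j : ℂ) * (p l : ℂ) * H j l * hI

/-- The null condition. -/
def Nu (H : Fin n → Fin n → ℂ) (ξ : Fin n → ℝ) (E : ℝ) : Prop :=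
  ∀ e p : Fin n → ℝ, D e e = 1 → D p p = 1 → D e p = 0 → D e ξ = 0 → D p ξ = 0 →
    ‖A H e e - A H p p + 2 * Complex.I * A H e p‖ ≤ E

theorem nu1 (hH : ∀ i j, H i j = H j i) {ξ : Fin n → ℝ} {E : ℝ} (hN : Nu H ξ E)
    {e p : Fin n → ℝ} (he : D e e = 1) (hp : D p p = 1) (hep : D e p = 0) (heξ : D e ξ = 0)
    (hpξ : D p ξ = 0) : ‖A H p p - A H e e‖ ≤ E ∧ 2 * ‖A H e p‖ ≤ E := by
  have h1 := hN e p he hp hep heξ hpξ
  have h2 := hN p e hp he (by rw [D_comm]; exact hep) hpξ heξ
  rw [A_comm hH p e] at h2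
  constructor
  · have h3 : (2 : ℂ) * (A H p p - A H e e)
        = (A H p p - A H e e + 2 * Complex.I * A H e p)
          - (A H e e - A H p p + 2 * Complex.I * A H e p) := by ring
    have h4 : ‖(2 : ℂ) * (A H p p - A H e e)‖ ≤ E + E := by
      rw [h3]; exact (norm_sub_le _ _).trans (add_le_add h2 h1)
    rw [norm_mul, Complex.norm_ofNat] at h4
    linarith
  · have h3 : (4 * Complex.I) * A H e p
        = (A H p p - A H e e + 2 * Complex.I * A H e p)
          + (A H e e - A H p p + 2 * Complex.I * A H e p) := by ring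
    have h4 : ‖(4 * Complex.I) * A H e p‖ ≤ E + E := by
      rw [h3]; exact (norm_add_le _ _).trans (add_le_add h2 h1)
    rw [norm_mul, norm_mul, Complex.norm_ofNat, Complex.norm_I] at h4
    linarith

/-- `H` is a multiple of the scalar product on `ξ^⊥`, quadratic form. -/
theorem quad (hH : ∀ i j, H i j = H j i) {ξ : Fin n → ℝ} {E : ℝ} (hE : 0 ≤ E) (hN : Nu H ξ E)
    {e : Fin n → ℝ} (he : D e e = 1) (heξ : D e ξ = 0) (x : Fin n → ℝ) (hx : D x ξ = 0) :
    ‖A H x x - A H e e * D x x‖ ≤ 2 * E * D x x := by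
  set α : ℝ := D x e with hα
  set y : Fin n → ℝ := x + (-α) • e with hy
  have hxy : x = α • e + y := by
    rw [hy]; simp
  have hye : D y e = 0 := by
    rw [hy, D_add, D_smul, he]; simp [hα]
  have hyξ : D y ξ = 0 := by
    rw [hy, D_add, D_smul, heξ, hx]; simp
  by_cases h0 : D y y = 0
  · have hy0 : y = 0 := D_zero h0
    have hx1 : x = α • e := by rw [hxy, hy0, add_zero]
    have h1 : A H x x = (α : ℂ) * ((α : ℂ) * A H e e) := by
      rw [hx1, A_smul, A_smul' hH]
    have h2 : D x x = α * (α * 1) := by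
      rw [hx1, D_smul, D_smul', he]
    rw [h1, h2]
    have h3 : (α : ℂ) * ((α : ℂ) * A H e e) - A H e e * ((α * (α * 1) : ℝ) : ℂ) = 0 := by
      push_cast; ring
    rw [h3, norm_zero]
    nlinarith [mul_self_nonneg α]
  · have hpos : 0 < D y y := lt_of_le_of_ne (D_nonneg y) (Ne.symm h0)
    set β : ℝ := Real.sqrt (D y y) with hβ
    have hβ0 : 0 < β := Real.sqrt_pos.2 hpos
    have hββ : β * β = D y y := Real.mul_self_sqrt hpos.le
    set p : Fin n → ℝ := β⁻¹ • y with hp
    have hyp : y = β • p := by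
      rw [hp, smul_smul, mul_inv_cancel₀ hβ0.ne', one_smul]
    have hpp : D p p = 1 := by
      rw [hp, D_smul, D_smul', ← hββ]; field_simp
    have hep : D e p = 0 := by
      rw [hp, D_smul', D_comm e y, hye, mul_zero]
    have hpξ : D p ξ = 0 := by
      rw [hp, D_smul, hyξ, mul_zero]
    obtain ⟨h1, h2⟩ := nu1 hH hN he hpp hep heξ hpξ
    have hA : A H x x = (α : ℂ) * α * A H e e + 2 * α * β * A H e p + (β : ℂ) * β * A H p p := by
      conv_lhs => rw [hxy, hyp]
      exact A_exp hH α β e p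
    have hD : D x x = α * α + β * β := by
      conv_lhs => rw [hxy, hyp]
      rw [D_exp, hep, he, hpp]; ring
    have h3 : A H x x - A H e e * D x x
        = ((2 * α * β : ℝ) : ℂ) * A H e p + ((β * β : ℝ) : ℂ) * (A H p p - A H e e) := by
      rw [hA, hD]; push_cast; ring
    rw [h3]
    refine (norm_add_le _ _).trans ?_
    rw [norm_mul, norm_mul, Complex.norm_real, Complex.norm_real, Real.norm_eq_abs,
      Real.norm_eq_abs, abs_of_nonneg (mul_self_nonneg β), hD, abs_mul, abs_mul, abs_two]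
    have h4 : |α| * |β| ≤ α * α + β * β := by
      nlinarith [sq_nonneg (|α| - |β|), sq_abs α, sq_abs β, mul_self_nonneg α, mul_self_nonneg β,
        abs_nonneg α, abs_nonneg β]
    have h5 : 2 * |α| * |β| * ‖A H e p‖ ≤ (α * α + β * β) * E := by
      calc 2 * |α| * |β| * ‖A H e p‖ = (|α| * |β|) * (2 * ‖A H e p‖) := by ring
        _ ≤ (α * α + β * β) * E := by
          apply mul_le_mul h4 h2 (by positivity)
          nlinarith [mul_self_nonneg α, mul_self_nonneg β]
    have h6 : β * β * ‖A H p p - A H e e‖ ≤ (α * α + β * β) * E := by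
      apply mul_le_mul _ h1 (norm_nonneg _)
      · nlinarith [mul_self_nonneg α, mul_self_nonneg β]
      · nlinarith [mul_self_nonneg α]
    linarith

/-- `H` is a multiple of the scalar product on `ξ^⊥`. -/
theorem bil (hH : ∀ i j, H i j = H j i) {ξ : Fin n → ℝ} {E : ℝ} (hE : 0 ≤ E) (hN : Nu H ξ E)
    {e : Fin n → ℝ} (he : D e e = 1) (heξ : D e ξ = 0) (x y : Fin n → ℝ) (hx : D x ξ = 0)
    (hy : D y ξ = 0) : ‖A H x y - A H e e * D x y‖ ≤ E * (D x x + D y y) := by
  have h1 := quad hH hE hN he heξ (x + y) (by rw [D_add, hx, hy, add_zero])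
  have h2 := quad hH hE hN he heξ (x + (-1 : ℝ) • y) (by rw [D_add, D_smul, hx, hy]; simp)
  have hA1 : A H (x + y) (x + y) = A H x x + 2 * A H x y + A H y y := by
    rw [A_add, A_add' hH, A_add' hH, A_comm hH y x]; ring
  have hA2 : A H (x + (-1 : ℝ) • y) (x + (-1 : ℝ) • y) = A H x x - 2 * A H x y + A H y y := by
    rw [A_add, A_add' hH, A_add' hH, A_smul, A_smul, A_smul' hH, A_smul' hH, A_comm hH y x]
    push_cast; ring
  have hD1 : D (x + y) (x + y) = D x x + 2 * D x y + D y y := by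
    rw [D_add, D_add', D_add', D_comm y x]; ring
  have hD2 : D (x + (-1 : ℝ) • y) (x + (-1 : ℝ) • y) = D x x - 2 * D x y + D y y := by
    rw [D_add, D_add', D_add', D_smul, D_smul, D_smul', D_smul', D_comm y x]; ring
  rw [hA1, hD1] at h1
  rw [hA2, hD2] at h2
  have h3 : (4 : ℂ) * (A H x y - A H e e * D x y)
      = (A H x x + 2 * A H x y + A H y y - A H e e * ((D x x + 2 * D x y + D y y : ℝ) : ℂ))
        - (A H x x - 2 * A H x y + A H y y
          - A H e e * ((D x x - 2 * D x y + D y y : ℝ) : ℂ)) := by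
    push_cast; ring
  have h4 : ‖(4 : ℂ) * (A H x y - A H e e * D x y)‖
      ≤ 2 * E * (D x x + 2 * D x y + D y y) + 2 * E * (D x x - 2 * D x y + D y y) := by
    rw [h3]; exact (norm_sub_le _ _).trans (add_le_add h1 h2)
  rw [norm_mul, Complex.norm_ofNat] at h4
  nlinarith

/-- The structure of `H`: `H_ij = h δ_ij + ν_j β_i + ν_i β_j + O(E)`. -/
theorem struct (hH : ∀ i j, H i j = H j i) {ν : Fin n → ℝ} {E : ℝ} (hE : 0 ≤ E)
    (hν : D ν ν = 1) (hN : Nu H ν E) {e : Fin n → ℝ} (he : D e e = 1) (heν : D e ν = 0) :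
    ∃ β : Fin n → ℂ, ∀ i j, ‖H i j - (if i = j then A H e e else 0)
      - (ν j : ℂ) * β i - (ν i : ℂ) * β j‖ ≤ 2 * E := by
  set f : Fin n → Fin n → ℝ := fun i => Pi.single i 1 + (-(ν i)) • ν with hf
  have hs : ∀ i, (Pi.single i 1 : Fin n → ℝ) = f i + (ν i) • ν := by
    intro i; rw [hf]; simp
  have hfν : ∀ i, D (f i) ν = 0 := by
    intro i; rw [hf]; simp only
    rw [D_add, D_smul, D_single, hν]; ring
  have hff : ∀ i j, D (f i) (f j) = (if i = j then 1 else 0) - ν i * ν j := by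
    intro i j
    have h1 : D (f i) (f j) = D (f i) (Pi.single j 1) := by
      have h2 : f j = Pi.single j 1 + (-(ν j)) • ν := rfl
      rw [h2, D_add', D_smul', hfν]; ring
    rw [h1, D_comm, D_single]
    have h2 : f i j = (Pi.single i 1 : Fin n → ℝ) j + -(ν i) * ν j := rfl
    rw [h2, Pi.single_apply]
    by_cases h : i = j
    · rw [if_pos h, if_pos h.symm]; ring
    · rw [if_neg h, if_neg (Ne.symm h)]; ring
  refine ⟨fun i => A H (f i) ν + (1 / 2 : ℝ) * (A H ν ν - A H e e) * ν i, fun i j => ?_⟩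
  have h1 := bil hH hE hN he heν (f i) (f j) (hfν i) (hfν j)
  have h2 : H i j = A H (f i) (f j) + (ν j : ℂ) * A H (f i) ν + (ν i : ℂ) * A H (f j) ν
      + (ν i : ℂ) * (ν j : ℂ) * A H ν ν := by
    conv_lhs => rw [← A_single (H := H) i j, hs i, hs j]
    exact A_exp2 hH (ν i) (ν j) (f i) (f j) ν
  have h3 : H i j - (if i = j then A H e e else 0)
      - (ν j : ℂ) * (A H (f i) ν + (1 / 2 : ℝ) * (A H ν ν - A H e e) * ν i)
      - (ν i : ℂ) * (A H (f j) ν + (1 / 2 : ℝ) * (A H ν ν - A H e e) * ν j)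
      = A H (f i) (f j) - A H e e * (D (f i) (f j) : ℝ) := by
    rw [hff i j, h2]
    by_cases h : i = j
    · simp only [h, if_true]; push_cast; ring
    · simp only [h, if_false]; push_cast; ring
  simp only
  rw [h3]
  refine h1.trans ?_
  rw [hff, hff]
  simp only [if_true]
  nlinarith [mul_self_nonneg (ν i), mul_self_nonneg (ν j)]

end Vale.Agent.P088.H75
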