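import Vale.Agent.P088.H442.C.Defs
import Vale.Agent.P088.H75.AlA

/-!
# P088, Theorem C: linear algebra (row C_AL)
-/

noncomputable section

namespace Vale.Agent.P088.H75

open Finset Vale.Agent.P088.LR

variable {n : ℕ} {H : Fin n → Fin n → ℂ}

theorem nr_sq (x : V n) : CF.nr x = Real.sqrt (D x x) := by
  unfold CF.nr D
  congr 1
  exact Finset.sum_congr rfl fun j _ => by ring

theorem nr_one {x : V n} (h : D x x = 1) : CF.nr x = 1 := by
  rw [nr_sq, h, Real.sqrt_one]

/-- A unit vector orthogonal to `ν`. -/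
theorem exists_e (hn : 2 ≤ n) (ν : Fin n → ℝ) (h0 : ν ⟨0, by omega⟩ ≠ 0) :
    ∃ e : Fin n → ℝ, D e e = 1 ∧ D e ν = 0 := by
  set i : Fin n := ⟨0, by omega⟩ with hi
  set j : Fin n := ⟨1, by omega⟩ with hj
  have hij : i ≠ j := by
    intro h
    have := congrArg Fin.val h
    simp [hi, hj] at this
  set x : Fin n → ℝ := (ν j) • Pi.single i 1 + (-(ν i)) • Pi.single j 1 with hx
  have hss : D (Pi.single i 1) (Pi.single j 1 : Fin n → ℝ) = 0 := by
    rw [D_single, Pi.single_apply, if_neg hij]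
  have hii : D (Pi.single i 1) (Pi.single i 1 : Fin n → ℝ) = 1 := by
    rw [D_single, Pi.single_apply, if_pos rfl]
  have hjj : D (Pi.single j 1) (Pi.single j 1 : Fin n → ℝ) = 1 := by
    rw [D_single, Pi.single_apply, if_pos rfl]
  have hxx : D x x = ν j * ν j + ν i * ν i := by
    rw [hx, D_exp, hii, hjj, hss]; ring
  have hxν : D x ν = 0 := by
    rw [hx, D_add, D_smul, D_smul, D_single, D_single]; ring
  have hpos : 0 < D x x := by
    rw [hxx]
    have := mul_self_pos.2 h0
    nlinarith [mul_self_nonneg (ν j)]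
  refine ⟨(Real.sqrt (D x x))⁻¹ • x, ?_, ?_⟩
  · rw [D_smul, D_smul']
    have h1 := Real.mul_self_sqrt hpos.le
    have h2 : Real.sqrt (D x x) ≠ 0 := (Real.sqrt_pos.2 hpos).ne'
    field_simp
    rw [pow_two, h1]
  · rw [D_smul, hxν, mul_zero]

theorem sum2 (i j : Fin n) (hij : j ≠ i) (c : ℂ) (F : Fin n → ℂ) :
    ∑ l, ((if l = i then 1 else 0) + (if l = j then 1 else 0) * c) * F l = F i + c * F j := by
  simp only [add_mul, Finset.sum_add_distrib, ite_mul, one_mul, zero_mul]
  rw [Finset.sum_ite_eq', Finset.sum_ite_eq']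
  simp

theorem quad2 (hH : ∀ i j, H i j = H j i) (i j : Fin n) (hij : j ≠ i) (c : ℂ) (hc : c * c = -1)
    (t : Fin n → ℂ) (ht : ∀ l, t l = (if l = i then 1 else 0) + (if l = j then 1 else 0) * c) :
    ∑ k, ∑ l, t k * t l * H k l = H i i - H j j + 2 * c * H i j := by
  have h1 : ∀ k, ∑ l, t k * t l * H k l = t k * (H k i + c * H k j) := by
    intro k
    rw [← sum2 i j hij c (fun l => H k l), Finset.mul_sum]
    refine Finset.sum_congr rfl fun l _ => ?_
    rw [ht l]; ring
  rw [Finset.sum_congr rfl fun k _ => h1 k]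
  have h2 : ∑ k, t k * (H k i + c * H k j) = (H i i + c * H i j) + c * (H j i + c * H j j) := by
    rw [← sum2 i j hij c (fun k => H k i + c * H k j)]
    refine Finset.sum_congr rfl fun l _ => ?_
    rw [ht l]
  rw [h2, hH j i]
  linear_combination H j j * hc

theorem tg_eq (jj : Fin n → Fin n) (i l : Fin n) :
    CC.tg jj i l = (if l = i then 1 else 0) + (if l = jj i then 1 else 0) * Complex.I := by
  unfold CC.tg
  apply Complex.ext
  · split_ifs <;> simp
  · split_ifs <;> simp

theorem tg_conj (jj : Fin n → Fin n) (i l : Fin n) :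
    starRingEnd ℂ (CC.tg jj i l)
      = (if l = i then 1 else 0) + (if l = jj i then 1 else 0) * (-Complex.I) := by
  rw [tg_eq, map_add, map_mul, Complex.conj_I]
  congr 1
  · by_cases h1 : l = i <;> simp [h1]
  · by_cases h1 : l = jj i <;> simp [h1]

/-- (C_AL) linear algebra. -/
theorem alc : CC.RowALC := by
  intro n hn
  refine ⟨22, by norm_num, ?_⟩
  intro H hH ξ E r hE hr hr1 hN0 hξ hnull jj hjj hg i j l
  set N : ℝ := CF.nr ξ with hN
  set ν : Fin n → ℝ := N⁻¹ • ξ with hν
  have hNN : D ξ ξ = N * N := by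
    rw [hN, nr_sq, Real.mul_self_sqrt (D_nonneg ξ)]
  have hνν : D ν ν = 1 := by
    rw [hν, D_smul, D_smul', hNN]; field_simp
  have hξν : ξ = N • ν := by
    rw [hν, smul_smul, mul_inv_cancel₀ hN0.ne', one_smul]
  have hξj : ∀ j, ξ j = N * ν j := by
    intro j; conv_lhs => rw [hξν]
    rfl
  have hνr : ∀ j, r ≤ |ν j| := by
    intro j
    have h1 := hξ j
    rw [hξj j, abs_mul, abs_of_pos hN0] at h1
    nlinarith
  have hν1 : ∀ j, |ν j| ≤ 1 := by
    intro j
    have h1 : ν j * ν j ≤ D ν ν :=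
      Finset.single_le_sum (f := fun j => ν j * ν j) (fun j _ => mul_self_nonneg _)
        (Finset.mem_univ j)
    rw [hνν] at h1
    exact abs_le_one_iff_mul_self_le_one.2 h1
  have hNu : Nu H ν E := by
    intro e p he hp hep heν hpν
    have h1 := hnull e p (nr_one he) (nr_one hp) hep
      (by have : D e ξ = 0 := by rw [hξν, D_smul', heν, mul_zero]
          exact this)
      (by have : D p ξ = 0 := by rw [hξν, D_smul', hpν, mul_zero]
          exact this)
    rw [q_eq hH] at h1
    exact h1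
  have hne : ν ⟨0, by omega⟩ ≠ 0 := by
    intro h
    have h1 := hνr ⟨0, by omega⟩
    rw [h, abs_zero] at h1
    linarith
  obtain ⟨e, he, heν⟩ := exists_e (by omega) ν hne
  obtain ⟨β, hβ⟩ := struct hH hE hνν hNu he heν
  set h : ℂ := A H e e with hh
  -- the bound of `β`
  have hβb : ∀ i, ‖β i‖ ≤ 9 / 2 * E / r := by
    intro i
    set k : Fin n := jj i with hk
    have hki : k ≠ i := hjj i
    obtain ⟨g, hg1, hg2⟩ := hg i
    have hI : Complex.I * Complex.I = -1 := Complex.I_mul_I
    have hI' : (-Complex.I) * (-Complex.I) = -1 := by rw [neg_mul_neg]; exact hI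
    rw [quad2 hH i k hki Complex.I hI (CC.tg jj i) (fun l => tg_eq jj i l)] at hg1
    rw [quad2 hH i k hki (-Complex.I) hI' (fun l => starRingEnd ℂ (CC.tg jj i l))
      (fun l => tg_conj jj i l)] at hg2
    have hs1 : ∑ l, CC.tg jj i l * (ξ l : ℂ) = (ξ i : ℂ) + Complex.I * ξ k := by
      rw [← sum2 i k hki Complex.I (fun l => (ξ l : ℂ))]
      exact Finset.sum_congr rfl fun l _ => by rw [tg_eq]
    have hs2 : ∑ l, starRingEnd ℂ (CC.tg jj i l) * (ξ l : ℂ) = (ξ i : ℂ) + (-Complex.I) * ξ k := by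
      rw [← sum2 i k hki (-Complex.I) (fun l => (ξ l : ℂ))]
      exact Finset.sum_congr rfl fun l _ => by rw [tg_conj]
    rw [hs1] at hg1
    rw [hs2] at hg2
    set Rii : ℂ := H i i - (if i = i then h else 0) - (ν i : ℂ) * β i - (ν i : ℂ) * β i with hRii
    set Rkk : ℂ := H k k - (if k = k then h else 0) - (ν k : ℂ) * β k - (ν k : ℂ) * β k with hRkk
    set Rik : ℂ := H i k - (if i = k then h else 0) - (ν k : ℂ) * β i - (ν i : ℂ) * β k with hRik
    have b1 : ‖Rii‖ ≤ 2 * E := hβ i i
    have b2 : ‖Rkk‖ ≤ 2 * E := hβ k k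
    have b3 : ‖Rik‖ ≤ 2 * E := hβ i k
    rw [if_pos rfl] at hRii hRkk
    rw [if_neg (Ne.symm hki)] at hRik
    have e1 : ((ν i : ℂ) + Complex.I * ν k) * (2 * (β i + Complex.I * β k) - N * g)
        = (H i i - H k k + 2 * Complex.I * H i k - ((ξ i : ℂ) + Complex.I * ξ k) * g)
          - Rii + Rkk - 2 * Complex.I * Rik := by
      rw [hRii, hRkk, hRik, hξj i, hξj k]
      push_cast
      linear_combination (2 * (ν k : ℂ) * β k) * hI
    have e2 : ((ν i : ℂ) + (-Complex.I) * ν k) * (2 * (β i + (-Complex.I) * β k) + N * g)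
        = (H i i - H k k + 2 * (-Complex.I) * H i k + ((ξ i : ℂ) + (-Complex.I) * ξ k) * g)
          - Rii + Rkk - 2 * (-Complex.I) * Rik := by
      rw [hRii, hRkk, hRik, hξj i, hξj k]
      push_cast
      linear_combination (2 * (ν k : ℂ) * β k) * hI
    have n1 : ‖((ν i : ℂ) + Complex.I * ν k) * (2 * (β i + Complex.I * β k) - N * g)‖ ≤ 9 * E := by
      rw [e1]
      refine (norm_sub_le _ _).trans ?_
      have t1 := norm_add_le
        ((H i i - H k k + 2 * Complex.I * H i k - ((ξ i : ℂ) + Complex.I * ξ k) * g) - Rii) Rkk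
      have t2 := norm_sub_le
        (H i i - H k k + 2 * Complex.I * H i k - ((ξ i : ℂ) + Complex.I * ξ k) * g) Rii
      have t3 : ‖2 * Complex.I * Rik‖ = 2 * ‖Rik‖ := by
        rw [norm_mul, norm_mul, Complex.norm_ofNat, Complex.norm_I]; ring
      linarith
    have n2 : ‖((ν i : ℂ) + (-Complex.I) * ν k) * (2 * (β i + (-Complex.I) * β k) + N * g)‖
        ≤ 9 * E := by
      rw [e2]
      refine (norm_sub_le _ _).trans ?_
      have t1 := norm_add_le
        ((H i i - H k k + 2 * (-Complex.I) * H i k + ((ξ i : ℂ) + (-Complex.I) * ξ k) * g) - Rii)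
        Rkk
      have t2 := norm_sub_le
        (H i i - H k k + 2 * (-Complex.I) * H i k + ((ξ i : ℂ) + (-Complex.I) * ξ k) * g) Rii
      have t3 : ‖2 * (-Complex.I) * Rik‖ = 2 * ‖Rik‖ := by
        rw [norm_mul, norm_mul, Complex.norm_ofNat, norm_neg, Complex.norm_I]; ring
      linarith
    have z1 : r ≤ ‖(ν i : ℂ) + Complex.I * ν k‖ := by
      refine (hνr i).trans ?_
      have := Complex.abs_re_le_norm ((ν i : ℂ) + Complex.I * ν k)
      simpa using this
    have z2 : r ≤ ‖(ν i : ℂ) + (-Complex.I) * ν k‖ := by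
      refine (hνr i).trans ?_
      have := Complex.abs_re_le_norm ((ν i : ℂ) + (-Complex.I) * ν k)
      simpa using this
    rw [norm_mul] at n1 n2
    have m1 : r * ‖2 * (β i + Complex.I * β k) - N * g‖ ≤ 9 * E :=
      (mul_le_mul_of_nonneg_right z1 (norm_nonneg _)).trans n1
    have m2 : r * ‖2 * (β i + (-Complex.I) * β k) + N * g‖ ≤ 9 * E :=
      (mul_le_mul_of_nonneg_right z2 (norm_nonneg _)).trans n2
    have e3 : (4 : ℂ) * β i = (2 * (β i + Complex.I * β k) - N * g)
        + (2 * (β i + (-Complex.I) * β k) + N * g) := by ring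
    have e4 : 4 * ‖β i‖ ≤ ‖2 * (β i + Complex.I * β k) - N * g‖
        + ‖2 * (β i + (-Complex.I) * β k) + N * g‖ := by
      have := norm_add_le (2 * (β i + Complex.I * β k) - N * g)
        (2 * (β i + (-Complex.I) * β k) + N * g)
      rw [← e3, norm_mul, Complex.norm_ofNat] at this
      exact this
    rw [le_div_iff₀ hr]
    nlinarith
  have hEr : E ≤ E / r := by
    rw [le_div_iff₀ hr]; nlinarith
  have key : ∀ i j, ‖H i j - (if i = j then h else 0)‖ ≤ 11 * E / r := by
    intro i j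
    have h1 := hβ i j
    have h2 : H i j - (if i = j then h else 0)
        = (H i j - (if i = j then h else 0) - (ν j : ℂ) * β i - (ν i : ℂ) * β j)
          + (ν j : ℂ) * β i + (ν i : ℂ) * β j := by ring
    have h3 : ‖(ν j : ℂ) * β i‖ ≤ 9 / 2 * E / r := by
      rw [norm_mul, Complex.norm_real, Real.norm_eq_abs]
      calc |ν j| * ‖β i‖ ≤ 1 * ‖β i‖ := mul_le_mul_of_nonneg_right (hν1 j) (norm_nonneg _)
        _ ≤ _ := by rw [one_mul]; exact hβb i
    have h4 : ‖(ν i : ℂ) * β j‖ ≤ 9 / 2 * E / r := by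
      rw [norm_mul, Complex.norm_real, Real.norm_eq_abs]
      calc |ν i| * ‖β j‖ ≤ 1 * ‖β j‖ := mul_le_mul_of_nonneg_right (hν1 i) (norm_nonneg _)
        _ ≤ _ := by rw [one_mul]; exact hβb j
    rw [h2]
    refine (norm_add_le _ _).trans ?_
    have h5 := norm_add_le
      (H i j - (if i = j then h else 0) - (ν j : ℂ) * β i - (ν i : ℂ) * β j) ((ν j : ℂ) * β i)
    have h6 : 11 * E / r = 9 / 2 * E / r + 9 / 2 * E / r + 2 * (E / r) := by ring
    rw [h6]
    linarith
  by_cases hij : i = j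
  · rw [if_pos hij]
    have h1 := key i j
    have h2 := key l l
    rw [if_pos hij] at h1
    rw [if_pos rfl] at h2
    have h3 : H i j - H l l = (H i j - h) - (H l l - h) := by ring
    rw [h3]
    refine (norm_sub_le _ _).trans ?_
    have h4 : 22 * E / r = 11 * E / r + 11 * E / r := by ring
    rw [h4]
    exact add_le_add h1 h2
  · rw [if_neg hij]
    have h1 := key i j
    rw [if_neg hij] at h1
    refine h1.trans ?_
    have h4 : 22 * E / r = 11 * E / r + 11 * (E / r) := by ring
    rw [h4]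
    have : 0 ≤ E / r := by positivity
    linarith

end Vale.Agent.P088.H75
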